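import Vale.Agent.Lib.P256.Products
import Vale.Agent.Lib.P256.Shadow
import Vale.Agent.Lib.P256.Pullback

namespace Vale.Agent.Results.P256.A_ProductsAndSubstitutions

open MvPolynomial Matrix Vale.Agent.P256

/-- Products of linear forms and two closure properties for the Projected Lax question.

(1) If `p` is a product of `k` linear forms in `n` variables, each positive at `e`, then `p` is
hyperbolic with respect to `e`, its hyperbolicity cone is the polyhedral cone cut out by the
forms, and this cone is a spectrahedron, hence a spectrahedral shadow.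

(2) If `p` and `q` are hyperbolic with respect to `e`, so is `p * q`, its cone is the
intersection of the two cones, and it is a spectrahedral shadow whenever both cones are.

(3) If `p` is hyperbolic with respect to `e = M e'`, then `y ↦ p (M y)` is hyperbolic with
respect to `e'`, its cone is the preimage of the cone of `p` under `M`, and it is a spectrahedral
shadow whenever the cone of `p` is. -/
theorem result :
    (∀ (n k : ℕ) (l : Fin k → Fin n → ℝ) (e : Fin n → ℝ),
      (∀ j, 0 < ∑ i, l j i * e i) →
        IsHyperbolic (∏ j, linForm (l j)) e ∧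
        hypCone (∏ j, linForm (l j)) e = {x | ∀ j, 0 ≤ ∑ i, l j i * x i} ∧
        IsSpectrahedron (hypCone (∏ j, linForm (l j)) e) ∧
        IsSpectrahedralShadow (hypCone (∏ j, linForm (l j)) e)) ∧
    (∀ (n : ℕ) (p q : MvPolynomial (Fin n) ℝ) (e : Fin n → ℝ),
      IsHyperbolic p e → IsHyperbolic q e →
        IsHyperbolic (p * q) e ∧
        hypCone (p * q) e = hypCone p e ∩ hypCone q e ∧
        (IsSpectrahedralShadow (hypCone p e) → IsSpectrahedralShadow (hypCone q e) →
          IsSpectrahedralShadow (hypCone (p * q) e))) ∧
    (∀ (n m : ℕ) (M : Matrix (Fin n) (Fin m) ℝ) (p : MvPolynomial (Fin n) ℝ)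
      (e : Fin n → ℝ) (e' : Fin m → ℝ),
      IsHyperbolic p e → M *ᵥ e' = e →
        IsHyperbolic (pullback M p) e' ∧
        hypCone (pullback M p) e' = {y | M *ᵥ y ∈ hypCone p e} ∧
        (IsSpectrahedralShadow (hypCone p e) →
          IsSpectrahedralShadow (hypCone (pullback M p) e'))) := by
  refine ⟨?_, ?_, ?_⟩
  · intro n k l e he
    have hc := hypCone_prod_linForm l e he
    have hs : IsSpectrahedron (hypCone (∏ j, linForm (l j)) e) := by
      rw [hc]; exact polyhedral_spectrahedron l
    exact ⟨isHyperbolic_prod_linForm l e he, hc, hs, spectrahedron_shadow hs⟩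
  · intro n p q e hp hq
    refine ⟨isHyperbolic_mul hp hq, hypCone_mul p q e, fun h1 h2 => ?_⟩
    rw [hypCone_mul]
    exact shadow_inter h1 h2
  · intro n m M p e e' hp he
    refine ⟨isHyperbolic_pullback M e' hp he, hypCone_pullback M p e' he, fun h => ?_⟩
    rw [hypCone_pullback M p e' he]
    exact shadow_preimage M h

end Vale.Agent.Results.P256.A_ProductsAndSubstitutions
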