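import Vale.Agent.Lib.P256.Factors

namespace Vale.Agent.Results.P256.B_LinearAndQuadraticFactors

open MvPolynomial Matrix Vale.Agent.P256

theorem bil_eq_dot {n : ℕ} (Q : Matrix (Fin n) (Fin n) ℝ) (u v : Fin n → ℝ) :
    bil Q u v = u ⬝ᵥ (Q *ᵥ v) := by
  unfold bil
  simp only [dotProduct, mulVec]
  apply Finset.sum_congr rfl
  intro i _
  rw [Finset.mul_sum]
  apply Finset.sum_congr rfl
  intro j _
  ring

/-- Hyperbolic polynomials that split into factors of degree at most two.

(1) If the quadratic form `p(x) = xᵀ Q x` (`Q` real symmetric, any number of variables) is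
hyperbolic with respect to `e`, then its hyperbolicity cone is
`{x | 0 ≤ eᵀ Q x ∧ 0 ≤ xᵀ Q x}`, and it is a spectrahedron, hence a spectrahedral shadow.

(2) If a product of linear forms and quadratic forms is hyperbolic with respect to `e`, then
its hyperbolicity cone is a spectrahedron, hence a spectrahedral shadow. -/
theorem result :
    (∀ (n : ℕ) (Q : Matrix (Fin n) (Fin n) ℝ) (e : Fin n → ℝ),
      Q.IsSymm → IsHyperbolic (quadForm Q) e →
        hypCone (quadForm Q) e = {x | 0 ≤ e ⬝ᵥ (Q *ᵥ x) ∧ 0 ≤ x ⬝ᵥ (Q *ᵥ x)} ∧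
        IsSpectrahedron (hypCone (quadForm Q) e) ∧
        IsSpectrahedralShadow (hypCone (quadForm Q) e)) ∧
    (∀ (n k m : ℕ) (l : Fin k → Fin n → ℝ) (Q : Fin m → Matrix (Fin n) (Fin n) ℝ)
      (e : Fin n → ℝ), (∀ j, (Q j).IsSymm) →
      IsHyperbolic ((∏ j, linForm (l j)) * ∏ j, quadForm (Q j)) e →
        IsSpectrahedron (hypCone ((∏ j, linForm (l j)) * ∏ j, quadForm (Q j)) e) ∧
        IsSpectrahedralShadow (hypCone ((∏ j, linForm (l j)) * ∏ j, quadForm (Q j)) e)) := by
  refine ⟨?_, ?_⟩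
  · intro n Q e hQ h
    have hs := quadForm_spectrahedron hQ h
    refine ⟨?_, hs, spectrahedron_shadow hs⟩
    rw [hypCone_quadForm hQ h]
    ext x
    simp only [Set.mem_ofPred_eq, bil_eq_dot]
  · intro n k m l Q e hQ h
    have hs := factors_spectrahedron l Q e hQ h
    exact ⟨hs, spectrahedron_shadow hs⟩

end Vale.Agent.Results.P256.B_LinearAndQuadraticFactors
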